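import Mathlib

/-!
# Splitting of a set killed by `(1 - τ_{pe}) (1 - τ_{qe})`

`p`, `q` coprime.  A `0/1` function `f` on `ℤ` with `(1 - τ_p) (1 - τ_q) f = 0` is `p`-periodic or
`q`-periodic; hence a set `T` with `(1 - τ_{pe}) (1 - τ_{qe}) 1_T = 0` is the disjoint union of a
`pe`-invariant set and a `qe`-invariant set.
-/

namespace Vale.Agent.P043.R2.H95

/-- A `0/1`-valued function on `ℤ` killed by `(1 - τ_p) (1 - τ_q)`, `p`, `q` coprime, is `p`-periodic
or `q`-periodic. -/
theorem int_split {p q : ℤ} (hpq : IsCoprime p q) {f : ℤ → ℤ} (h01 : ∀ n, f n = 0 ∨ f n = 1)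
    (h : ∀ n, f n - f (n - p) - f (n - q) + f (n - p - q) = 0) :
    (∀ n, f (n + p) = f n) ∨ (∀ n, f (n + q) = f n) := by
  have h' : ∀ n, f (n + p + q) - f (n + q) = f (n + p) - f n := by
    intro n
    have := h (n + p + q)
    have e1 : n + p + q - p = n + q := by ring
    have e2 : n + p + q - q = n + p := by ring
    have e3 : n + p + q - p - q = n := by ring
    rw [e3, e1, e2] at this
    linarith
  have hg : Function.Periodic (fun n => f (n + p) - f n) q := by
    intro n
    show f (n + q + p) - f (n + q) = f (n + p) - f n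
    rw [← h' n]
    congr 2
    ring
  have hk : ∀ j : ℤ, Function.Periodic (fun n => f (n + j * q) - f n) p := by
    intro j n
    show f (n + p + j * q) - f (n + p) = f (n + j * q) - f n
    have := hg.int_mul j n
    have e : f (n + j * q + p) - f (n + j * q) = f (n + p) - f n := this
    have e1 : n + p + j * q = n + j * q + p := by ring
    rw [e1]
    linarith
  by_contra hc
  push Not at hc
  obtain ⟨⟨n, hn⟩, ⟨m, hm⟩⟩ := hc
  obtain ⟨a, b, hab⟩ := hpq
  -- `m = n + i p + j q`
  obtain ⟨i, j, hij⟩ : ∃ i j : ℤ, m = n + i * p + j * q := by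
    refine ⟨(m - n) * a, (m - n) * b, ?_⟩
    have : (m - n) * (a * p + b * q) = m - n := by rw [hab, mul_one]
    linarith [this, mul_assoc (m - n) a p, mul_assoc (m - n) b q, mul_add (m - n) (a * p) (b * q)]
  have hv : ∃ j' : ℤ, f (n + j' * q) ≠ f n := by
    by_contra hall
    push Not at hall
    apply hm
    have e1 := (hk (j + 1)).int_mul i n
    have e2 := (hk j).int_mul i n
    have e1' : f (n + i * p + (j + 1) * q) - f (n + i * p) = f (n + (j + 1) * q) - f n := e1
    have e2' : f (n + i * p + j * q) - f (n + i * p) = f (n + j * q) - f n := e2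
    have e3 : m + q = n + i * p + (j + 1) * q := by rw [hij]; ring
    rw [e3, hij]
    have := hall (j + 1)
    have := hall j
    linarith
  obtain ⟨j', hj'⟩ := hv
  have e := hk j' n
  have e' : f (n + p + j' * q) - f (n + p) = f (n + j' * q) - f n := e
  rcases h01 n with h0 | h0 <;> rcases h01 (n + p) with h1 | h1 <;>
    rcases h01 (n + j' * q) with h2 | h2 <;> rcases h01 (n + p + j' * q) with h3 | h3 <;>
    simp_all

open Classical in
/-- The indicator function. -/
noncomputable def ind {X : Type*} (T : Set X) (x : X) : ℤ := if x ∈ T then 1 else 0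

/-- The part of `T` consisting of full `p e`-lines. -/
def full {X : Type*} [AddCommGroup X] (T : Set X) (p : ℤ) (e : X) : Set X :=
  {x | ∀ n : ℤ, x + (n * p) • e ∈ T}

theorem full_subset {X : Type*} [AddCommGroup X] (T : Set X) (p : ℤ) (e : X) :
    full T p e ⊆ T := by
  intro x hx
  have := hx 0
  simpa using this

theorem full_inv {X : Type*} [AddCommGroup X] (T : Set X) (p : ℤ) (e : X) (x : X) :
    x + p • e ∈ full T p e ↔ x ∈ full T p e := by
  constructor
  · intro hx n
    have := hx (n - 1)
    have e1 : x + p • e + ((n - 1) * p) • e = x + (n * p) • e := by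
      rw [add_assoc, ← add_smul]
      congr 2
      ring
    rwa [e1] at this
  · intro hx n
    have := hx (n + 1)
    have e1 : x + p • e + (n * p) • e = x + ((n + 1) * p) • e := by
      rw [add_assoc, ← add_smul]
      congr 2
      ring
    rwa [e1]

/-- Every period of `T` is a period of `full T p e`. -/
theorem full_per {X : Type*} [AddCommGroup X] {T : Set X} {v : X} (hv : ∀ x, v + x ∈ T ↔ x ∈ T)
    (p : ℤ) (e : X) (x : X) : v + x ∈ full T p e ↔ x ∈ full T p e := by
  unfold full
  simp only [Set.mem_ofPred_eq, add_assoc, hv]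

/-- Dichotomy on every `e`-coset. -/
theorem coset_split {X : Type*} [AddCommGroup X] {p q : ℤ} (hpq : IsCoprime p q) {T : Set X} {e : X}
    (h : ∀ x, ind T x - ind T (x - p • e) - ind T (x - q • e) + ind T (x - p • e - q • e) = 0)
    (x : X) :
    (∀ n : ℤ, x + (n + p) • e ∈ T ↔ x + n • e ∈ T) ∨
      (∀ n : ℤ, x + (n + q) • e ∈ T ↔ x + n • e ∈ T) := by
  have hsplit := int_split hpq (f := fun n => ind T (x + n • e))
    (fun n => by unfold ind; split_ifs <;> simp)
    (fun n => by
      have := h (x + n • e)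
      have e1 : x + n • e - p • e = x + (n - p) • e := by rw [sub_smul]; abel
      have e2 : x + n • e - q • e = x + (n - q) • e := by rw [sub_smul]; abel
      have e3 : x + (n - p) • e - q • e = x + (n - p - q) • e := by rw [sub_smul _ q]; abel
      rw [e1, e2, e3] at this
      exact this)
  have hiff : ∀ u v : X, ind T u = ind T v → (u ∈ T ↔ v ∈ T) := by
    intro u v huv
    unfold ind at huv
    by_cases h1 : u ∈ T <;> by_cases h2 : v ∈ T <;> simp [h1, h2] at huv ⊢
  rcases hsplit with h1 | h1
  · exact Or.inl fun n => hiff _ _ (h1 n)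
  · exact Or.inr fun n => hiff _ _ (h1 n)

theorem diff_inv {X : Type*} [AddCommGroup X] {p q : ℤ} (hpq : IsCoprime p q) {T : Set X} {e : X}
    (h : ∀ x, ind T x - ind T (x - p • e) - ind T (x - q • e) + ind T (x - p • e - q • e) = 0)
    (x : X) : x + q • e ∈ T \ full T p e ↔ x ∈ T \ full T p e := by
  rcases coset_split hpq h x with h1 | h1
  · -- everything in the coset is in `full`
    have hper : ∀ n k : ℤ, x + (n + k * p) • e ∈ T ↔ x + n • e ∈ T := by
      intro n k
      have hP : Function.Periodic (fun n : ℤ => x + n • e ∈ T) p := fun n => propext (h1 n)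
      exact iff_of_eq (hP.int_mul k n)
    have hfull : ∀ n : ℤ, x + n • e ∈ T → x + n • e ∈ full T p e := by
      intro n hn k
      have := (hper n k).2 hn
      rwa [add_smul, ← add_assoc] at this
    constructor
    · rintro ⟨ha, hb⟩
      exact absurd (hfull q ha) hb
    · rintro ⟨ha, hb⟩
      have := hfull 0 (by simpa using ha)
      simp only [zero_smul, add_zero] at this
      exact absurd this hb
  · have hT : ∀ n : ℤ, x + q • e + n • e ∈ T ↔ x + n • e ∈ T := by
      intro n
      have := h1 n
      rw [add_comm n q, add_smul, ← add_assoc] at this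
      exact this
    have hF : x + q • e ∈ full T p e ↔ x ∈ full T p e := by
      unfold full
      simp only [Set.mem_ofPred_eq, hT]
    have hT0 : x + q • e ∈ T ↔ x ∈ T := by simpa using hT 0
    simp only [Set.mem_sdiff, hT0, hF]

/-- **Splitting.**  If `(1 - τ_{pe}) (1 - τ_{qe}) 1_T = 0` with `p`, `q` coprime then `T` is the
disjoint union of the `pe`-invariant set `full T p e` and the `qe`-invariant set
`T \ full T p e`. -/
theorem split {X : Type*} [AddCommGroup X] {p q : ℤ} (hpq : IsCoprime p q) {T : Set X} {e : X}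
    (h : ∀ x, ind T x - ind T (x - p • e) - ind T (x - q • e) + ind T (x - p • e - q • e) = 0) :
    ∃ T0 T1 : Set X, T0 ∪ T1 = T ∧ Disjoint T0 T1 ∧ (∀ x, x + p • e ∈ T0 ↔ x ∈ T0) ∧
      (∀ x, x + q • e ∈ T1 ↔ x ∈ T1) ∧
      (∀ v : X, (∀ x, v + x ∈ T ↔ x ∈ T) →
        (∀ x, v + x ∈ T0 ↔ x ∈ T0) ∧ (∀ x, v + x ∈ T1 ↔ x ∈ T1)) := by
  refine ⟨full T p e, T \ full T p e, Set.union_sdiff_cancel (full_subset T p e),
    Set.disjoint_sdiff_right, full_inv T p e, diff_inv hpq h, fun v hv => ⟨full_per hv p e, ?_⟩⟩
  intro x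
  simp only [Set.mem_sdiff, hv, full_per hv p e]

end Vale.Agent.P043.R2.H95
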